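import Vale.Agent.Lib.P154F.Data

namespace Vale.Agent.Lib.P154F

open Vale.Agent.Lib.P154K

/-- The coefficient check of the merge inequality, reflected second argument. -/
theorem checkM : check 290 29 29 (mkF (chamber 1 1) (chamberR 1 1) mL 7 mR 8 8) = true := by
  decide +kernel

end Vale.Agent.Lib.P154F
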