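import Vale.Agent.Lib.P154K.Cham

/-!
# The lists of coefficients of the potential of degree eight, at eigenvalue one
-/

namespace Vale.Agent.Lib.P154F

/-- The terms of the potential: `(i, j, c)` stands for `c * p2 ^ i * p3 ^ j`. -/
def mL : List (ℕ × ℕ × ℤ) :=
  [(1, 0, 4800000), (2, 0, 565920), (1, 1, -7601040), (0, 2, -2980800), (3, 0, 9424080), (2, 1, -27216000), (1, 2, 50893920), (4, 0, -3458700)]

/-- The terms of the right side of the merge inequality. -/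
def mR : List (ℕ × ℕ × ℕ × ℕ × ℤ) :=
  [(1, 0, 0, 0, 4800000), (0, 0, 1, 0, 4800000), (2, 0, 0, 0, 565920), (0, 0, 2, 0, 565920), (1, 1, 0, 0, -7601040), (0, 0, 1, 1, -7601040), (0, 2, 0, 0, -2980800), (0, 0, 0, 2, -2980800), (3, 0, 0, 0, 9424080), (0, 0, 3, 0, 9424080), (2, 1, 0, 0, -27216000), (0, 0, 2, 1, -27216000), (1, 2, 0, 0, 50893920), (0, 0, 1, 2, 50893920), (4, 0, 0, 0, -3458700), (0, 0, 4, 0, -3458700), (1, 0, 1, 0, -72000), (0, 1, 1, 0, -30332880), (0, 1, 2, 0, 4169556), (0, 1, 1, 1, -115473600), (0, 1, 3, 0, 51030000), (2, 0, 1, 0, 4549932), (2, 0, 2, 0, -1005534), (2, 0, 1, 1, 17321040), (2, 0, 3, 0, -7654500), (1, 0, 0, 1, -30319920), (1, 0, 2, 0, 4547988), (2, 0, 0, 1, -11109960), (1, 1, 0, 1, 200095920), (1, 1, 2, 0, -30014388), (0, 1, 0, 1, 90959760), (0, 2, 0, 1, -500298120), (0, 2, 2, 0, 75044718), (3, 0, 0, 1, 84884760), (3, 0, 2, 0, -12732714), (2, 1, 0, 1, -504803340), (2,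 1, 2, 0, 75720501), (1, 2, 0, 1, 750447180), (1, 2, 2, 0, -112567077)]

/-- The terms of the invariant, with a sign. -/
def iL : List (ℕ × ℕ × ℤ) := [(0, 1, -1440), (2, 0, 216)]

/-- The terms of the right side of the invariant inequality, with a sign. -/
def iR : List (ℕ × ℕ × ℕ × ℕ × ℤ) :=
  [(0, 1, 0, 0, -1440), (2, 0, 0, 0, 216), (0, 0, 0, 1, -1440), (0, 0, 2, 0, 216), (1, 0, 0, 1, 6480),
    (1, 0, 2, 0, -972), (2, 0, 0, 1, -9720), (2, 0, 2, 0, 1458), (3, 0, 0, 1, 4860), (3, 0, 2, 0, -729)]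

end Vale.Agent.Lib.P154F
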