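import Vale.Agent.Lib.P154F.Ray
import Vale.Agent.Lib.P154F.ChkP
import Vale.Agent.Lib.P154F.ChkM
import Vale.Agent.Lib.P154Q.Three

/-!
# Nonreconstruction for three colours, every nonnegative eigenvalue below one, every offspring law
-/

namespace Vale.Agent.Lib.P154F

open Vale.Agent.Lib.P154 Vale.Agent.Lib.P154GW Vale.Agent.Lib.P154K

theorem inv_checkP : check 140 15 13 (mkF (chamber 1 1) (chamber 1 1) iL 3 iR 6 4) = true := by
  decide +kernel

theorem inv_checkM : check 140 15 13 (mkF (chamber 1 1) (chamberR 1 1) iL 3 iR 6 4) = true := by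
  decide +kernel

lemma potL_i (c : Tp) : potL iL c = 320 * (-chiF c) := by
  simp only [potL, iL, List.map_cons, List.map_nil, List.sum_cons, List.sum_nil, chiF, Aq, Pq]
  norm_num
  ring

lemma rhsL_i (a b : Tp) : rhsL iR a b = 320 * (-(chiF a + KF a * chiF b)) := by
  simp only [rhsL, iR, List.map_cons, List.map_nil, List.sum_cons, List.sum_nil, chiF, KF, Aq, Pq]
  norm_num
  ring

lemma avg6_mul (ρ : ℝ) (N : Tp → ℝ) (f : Tp → ℝ) (b : Tp) :
    avg6 (fun b' => N b' * (ρ * f b')) b = ρ * avg6 (fun b' => N b' * f b') b := by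
  simp only [avg6]
  ring

lemma avg6_neg (N : Tp → ℝ) (f : Tp → ℝ) (b : Tp) :
    avg6 (fun b' => N b' * (-f b')) b = -avg6 (fun b' => N b' * f b') b := by
  simp only [avg6]
  ring

/-- The inequality of the invariant. -/
theorem inv_F {lb : ℝ} (hlb0 : 0 ≤ lb) (hlb : lb < 1) (a b : Tp) (ha : InSx 1 a) (hb : InSx lb b) :
    chiF a + KF a * chiF b ≤ avg6 (fun b' => (1 + 3 * sF a b') * chiF (wF a b')) b := by
  have key := avg6_le_all (L := iL) (R := iR) (p := 1) (q := 1) (by norm_num) (by norm_num)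
    inv_checkP inv_checkM (by simp [iL]) (by simp [iR])
    (by
      intro t ht
      simp only [iL, List.mem_cons, List.not_mem_nil, or_false] at ht
      repeat' (rcases ht with rfl | ht)
      all_goals norm_num)
    (by
      intro t ht
      simp only [iR, List.mem_cons, List.not_mem_nil, or_false] at ht
      repeat' (rcases ht with rfl | ht)
      all_goals norm_num)
    hlb0 hlb (by push_cast; linarith) a b ha hb
  rw [rhsL_i] at key
  simp only [potL_i] at key
  rw [avg6_mul 320 (fun b' => 1 + 3 * sF a b') (fun b' => -chiF (wF a b')), avg6_neg] at key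
  linarith

lemma potL_m (c : Tp) : potL mL c = 3200000 * psiF c := by
  simp only [potL, mL, List.map_cons, List.map_nil, List.sum_cons, List.sum_nil, psiF, Aq, Pq]
  norm_num
  ring

lemma rhsL_m (a b : Tp) : rhsL mR a b = 3200000 * (psiF a + psiF b - 9 / 400 * (p2T a * p2T b) -
    GF b * chiF a - HF a * chiF b) := by
  simp only [rhsL, mR, List.map_cons, List.map_nil, List.sum_cons, List.sum_nil, psiF, GF, HF, chiF, Aq, Pq]
  norm_num
  ring

/-- The merge inequality. -/
theorem merge_F {lb : ℝ} (hlb0 : 0 ≤ lb) (hlb : lb < 1) (a b : Tp) (ha : InSx 1 a) (hb : InSx lb b) :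
    avg6 (fun b' => (1 + 3 * sF a b') * psiF (wF a b')) b ≤
      psiF a + psiF b - 9 / 400 * (p2T a * p2T b) - GF b * chiF a - HF a * chiF b := by
  have key := avg6_le_all (L := mL) (R := mR) (p := 1) (q := 1) (by norm_num) (by norm_num)
    checkP checkM (by simp [mL]) (by simp [mR])
    (by
      intro t ht
      simp only [mL, List.mem_cons, List.not_mem_nil, or_false] at ht
      repeat' (rcases ht with rfl | ht)
      all_goals norm_num)
    (by
      intro t ht
      simp only [mR, List.mem_cons, List.not_mem_nil, or_false] at ht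
      repeat' (rcases ht with rfl | ht)
      all_goals norm_num)
    hlb0 hlb (by push_cast; linarith) a b ha hb
  rw [rhsL_m] at key
  simp only [potL_m] at key
  rw [avg6_mul 3200000 (fun b' => 1 + 3 * sF a b') (fun b' => psiF (wF a b'))] at key
  exact le_of_mul_le_mul_left key (by norm_num)

/-- **Nonreconstruction for three colours on Galton-Watson trees**, every offspring law with finite mean
`d`, with an atom at some `k ≥ 2`, every `0 ≤ lam < 1` with `d * lam ^ 2 ≤ 1`. -/
theorem tendsto_law {π : ℕ → ℝ} {d lam : ℝ} (hπ0 : ∀ k, 0 ≤ π k) (hπ : HasSum π 1)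
    (hmean : HasSum (fun k : ℕ => (k : ℝ) * π k) d) (k₀ : ℕ) (hπ2 : 0 < π (k₀ + 2))
    (h0 : 0 ≤ lam) (h1 : lam < 1) (hd : d * lam ^ 2 ≤ 1) :
    Filter.Tendsto (advantage π 3 lam) Filter.atTop (nhds 0) := by
  refine Vale.Agent.Lib.P154Q.tendsto_three (lb := lam) (t := 9 / 400) (C := 4) (K' := 5 / 3)
    (ψ := psiF) (χ := chiF) (G := GF) (H := HF) (K := KF) hπ0 hπ hmean k₀ hπ2 (by norm_num) h0 le_rfl
    h1.le (fun a b ha hb => merge_F h0 h1 a b ha hb) (fun a b ha hb => inv_F h0 h1 a b ha hb)
    (fun b hb => GF_nonneg (hb.mono h1.le)) (fun a ha => HF_nonneg ha) (fun a ha => KF_nonneg ha)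
    (fun c _ => chi_scale h0 h1.le c) chi_zero chi_v1 chi_v2 chi_v3
    (fun c hc => psi_ray h0 h1.le hc) psi_zero (fun c hc => psi_nonneg hc) (fun c hc => p2_le_psi hc)
    (fun c hc => psi_le hc) hd

end Vale.Agent.Lib.P154F
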