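import Vale.Agent.Lib.P154F.Side

/-!
# The potential along the rays from the centre of the simplex
-/

namespace Vale.Agent.Lib.P154F

open Vale.Agent.Lib.P154 Vale.Agent.Lib.P154GW Vale.Agent.Lib.P154K Tp

/-- The terms of a polynomial in `p2, p3`, which is nonnegative on the simplex. -/
def kR : List (ℕ × ℕ × ℕ × ℕ × ℤ) :=
  [(1, 0, 0, 0, 9432), (0, 1, 0, 0, -190026), (2, 0, 0, 0, 297576), (1, 1, 0, 0, -1134000),
    (0, 2, 0, 0, 2544696), (3, 0, 0, 0, -172935)]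

/-- The polynomial with all denominators cleared, multiplied by the fourth power of the sum of the
barycentric coordinates. -/
def kE : Ex :=
  .mul (.pow sA 4) (rE kR 6 0 (chamber 1 1).den (chamber 1 1).den (chamber 1 1).exA (chamber 1 1).exB)

theorem kCheck : check 100 10 0 kE = true := by
  decide +kernel

lemma rhs_sorted {c : Tp} (hc : InSx 1 c) (hs : Srt c) : 0 ≤ rhsL kR c ⟨0, 0, 0⟩ := by
  obtain ⟨u, v, w, hu, hv, hw, hsum, rfl⟩ :=
    chamber_coord (p := 1) (q := 1) (by norm_num) (by norm_num) (by simpa using hc) hs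
  have hDa : 0 < (chamber 1 1).den := by simp [chamber]
  have hr : ∀ i, 0 ≤ mkR u v w 1 0 0 i := by
    intro i; fin_cases i <;> simp [mkR] <;> assumption
  have key := check_val kCheck _ hr
  set r := mkR u v w 1 0 0 with hrd
  have hS : sA.val r = 1 := by
    rw [val_sA]
    simpa [hrd, mkR] using hsum
  have hT : sB.val r = 1 := by
    rw [val_sB]
    simp [hrd, mkR]
  have hA : (chamber 1 1).exA.val r = scale (chamber 1 1).den ((chamber 1 1).pt u v w) := by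
    rw [exA_val _ _ hDa]; rfl
  have hB : (chamber 1 1).exB.val r = scale (chamber 1 1).den ⟨0, 0, 0⟩ := by
    rw [exB_val _ _ hDa]
    have : (chamber 1 1).pt (r 3) (r 4) (r 5) = ⟨0, 0, 0⟩ := by
      simp [hrd, mkR, Trg.pt, chamber]
    rw [this]
  have hne : kR ≠ [] := by simp [kR]
  have hk : ∀ t ∈ kR, 2 * t.1 + 3 * t.2.1 ≤ 6 ∧ 2 * t.2.2.1 + 3 * t.2.2.2.1 ≤ 0 := by
    intro t ht
    simp only [kR, List.mem_cons, List.not_mem_nil, or_false] at ht
    repeat' (rcases ht with rfl | ht)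
    all_goals norm_num
  have e := val_rE (r := r) hne hk _ _ (by rfl) (by rfl) hS hT hA hB
  simp only [kE, Ex.val, hS, e, one_pow, one_mul, pow_zero, mul_one] at key
  have hD : (0 : ℝ) < ((chamber 1 1).den : ℝ) := by exact_mod_cast hDa
  exact nonneg_of_mul_nonneg_right key (by positivity)

/-- Every triple has a sorted rearrangement. -/
lemma exists_sorted {c : Tp} (hc : InSx 1 c) :
    ∃ s, InSx 1 s ∧ Srt s ∧ p2T s = p2T c ∧ p3T s = p3T c := by
  rcases le_total c.y c.x with h1 | h1 <;> rcases le_total c.z c.y with h2 | h2 <;>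
    rcases le_total c.z c.x with h3 | h3
  · exact ⟨c, hc, ⟨h1, h2⟩, rfl, rfl⟩
  · exact ⟨c, hc, ⟨h1, h2⟩, rfl, rfl⟩
  · exact ⟨c.r3, hc.r3', ⟨h3, h2⟩, p2T_r3 c, p3T_r3 c⟩
  · exact ⟨c.r2, hc.r2', ⟨h3, h1⟩, p2T_r2 c, p3T_r2 c⟩
  · exact ⟨c.r4, hc.r4', ⟨h1, h3⟩, p2T_r4 c, p3T_r4 c⟩
  · exact ⟨c.r1, hc.r1', ⟨h2, h3⟩, p2T_r1 c, p3T_r1 c⟩
  · exact ⟨c, hc, ⟨by linarith, by linarith⟩, rfl, rfl⟩
  · refine ⟨c.r5, hc.r5', ⟨h2, h1⟩, ?_, ?_⟩
    · simp only [p2T, r5]; ring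
    · simp only [p3T, r5]; ring

/-- A polynomial inequality on the simplex. -/
lemma k_nonneg {c : Tp} (hc : InSx 1 c) :
    0 ≤ 393 / 2500 * Aq c - 10557 / 10000 * Pq c + 8 * (4363 / 10000 - 23 / 1000) * Aq c ^ 2 -
      21 / 5 * (Aq c * Pq c) + 3927 / 1250 * Pq c ^ 2 - 1281 / 1000 * Aq c ^ 3 := by
  obtain ⟨s, hs, hso, e2, e3⟩ := exists_sorted hc
  have h := rhs_sorted hs hso
  rw [rhsL] at h
  simp only [kR, List.map_cons, List.map_nil, List.sum_cons, List.sum_nil, e2, e3] at h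
  simp only [Aq, Pq]
  norm_num at h ⊢
  nlinarith [h]

/-- The derivative of the potential along a ray is nonnegative. -/
lemma g_nonneg {c : Tp} (hc : InSx 1 c) :
    0 ≤ 393 / 2500 * Aq c ^ 2 - 10557 / 10000 * (Aq c * Pq c) - 23 / 125 * Pq c ^ 2 +
      4363 / 1250 * Aq c ^ 3 - 21 / 5 * (Aq c ^ 2 * Pq c) + 3927 / 1250 * (Aq c * Pq c ^ 2) -
      1281 / 1000 * Aq c ^ 4 := by
  have hk := k_nonneg hc
  obtain ⟨a0, a1, pa, cub, edge⟩ := reg_of hc
  have := mul_nonneg a0 hk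
  nlinarith

/-- A polynomial of this shape increases on the unit interval. -/
lemma poly_mono (A a2 a3 a4 a5 a6 : ℝ)
    (h : ∀ s, 0 < s → s < 1 → 0 ≤ a2 * (2 * s) + a3 * (3 * s ^ 2) + a4 * (4 * s ^ 3) + a5 * (5 * s ^ 4) +
      a6 * (6 * s ^ 5)) {l : ℝ} (h0 : 0 ≤ l) (h1 : l ≤ 1) :
    A + a2 * l ^ 2 + a3 * l ^ 3 + a4 * l ^ 4 + a5 * l ^ 5 + a6 * l ^ 6 ≤ A + a2 + a3 + a4 + a5 + a6 := by
  set F : ℝ → ℝ := fun s => A + a2 * s ^ 2 + a3 * s ^ 3 + a4 * s ^ 4 + a5 * s ^ 5 + a6 * s ^ 6 with hF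
  have hd : ∀ s, HasDerivAt F
      (a2 * (2 * s) + a3 * (3 * s ^ 2) + a4 * (4 * s ^ 3) + a5 * (5 * s ^ 4) + a6 * (6 * s ^ 5)) s := by
    intro s
    have p2 := (hasDerivAt_pow 2 s).const_mul a2
    have p3 := (hasDerivAt_pow 3 s).const_mul a3
    have p4 := (hasDerivAt_pow 4 s).const_mul a4
    have p5 := (hasDerivAt_pow 5 s).const_mul a5
    have p6 := (hasDerivAt_pow 6 s).const_mul a6
    have := ((((((hasDerivAt_const s A).fun_add p2).fun_add p3).fun_add p4).fun_add p5).fun_add p6)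
    exact this.congr_deriv (by norm_num)
  have hm : MonotoneOn F (Set.Icc 0 1) := by
    apply monotoneOn_of_deriv_nonneg (convex_Icc 0 1)
    · exact fun s _ => (hd s).continuousAt.continuousWithinAt
    · exact fun s _ => (hd s).differentiableAt.differentiableWithinAt
    · intro s hs
      rw [interior_Icc] at hs
      rw [(hd s).deriv]
      exact h s hs.1 hs.2
  have := hm ⟨h0, h1⟩ ⟨zero_le_one, le_rfl⟩ h1
  simp only [hF, one_pow, mul_one] at this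
  exact this

/-- The potential along a ray. -/
theorem psi_ray {l : ℝ} (h0 : 0 ≤ l) (h1 : l ≤ 1) {c : Tp} (hc : InSx 1 c) :
    psiF (scale l c) ≤ l ^ 2 * psiF c := by
  set A := Aq c with hA
  set P := Pq c with hP
  have key := poly_mono A (393 / 5000 * A ^ 2) (-(3519 / 10000) * (A * P))
    (4363 / 5000 * A ^ 3 - 23 / 500 * P ^ 2) (-(21 / 25) * (A ^ 2 * P))
    (1309 / 2500 * (A * P ^ 2) - 427 / 2000 * A ^ 4) ?_ h0 h1
  · have e1 : psiF (scale l c) = l ^ 2 * (A + 393 / 5000 * A ^ 2 * l ^ 2 + -(3519 / 10000) * (A * P) * l ^ 3 +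
        (4363 / 5000 * A ^ 3 - 23 / 500 * P ^ 2) * l ^ 4 + -(21 / 25) * (A ^ 2 * P) * l ^ 5 +
        (1309 / 2500 * (A * P ^ 2) - 427 / 2000 * A ^ 4) * l ^ 6) := by
      simp only [psiF, Aq_scale, Pq_scale, ← hA, ← hP]
      ring
    have e2 : psiF c = A + 393 / 5000 * A ^ 2 + -(3519 / 10000) * (A * P) +
        (4363 / 5000 * A ^ 3 - 23 / 500 * P ^ 2) + -(21 / 25) * (A ^ 2 * P) +
        (1309 / 2500 * (A * P ^ 2) - 427 / 2000 * A ^ 4) := by
      simp only [psiF, ← hA, ← hP]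
      ring
    rw [e1, e2]
    exact mul_le_mul_of_nonneg_left key (by positivity)
  · intro s hs0 hs1
    have hin : InSx 1 (scale s c) := (hc.scale hs0.le).mono hs1.le
    have hg := g_nonneg hin
    simp only [Aq_scale, Pq_scale, ← hA, ← hP] at hg
    have e : s ^ 3 * (393 / 5000 * A ^ 2 * (2 * s) + -(3519 / 10000) * (A * P) * (3 * s ^ 2) +
        (4363 / 5000 * A ^ 3 - 23 / 500 * P ^ 2) * (4 * s ^ 3) + -(21 / 25) * (A ^ 2 * P) * (5 * s ^ 4) +
        (1309 / 2500 * (A * P ^ 2) - 427 / 2000 * A ^ 4) * (6 * s ^ 5)) =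
      393 / 2500 * (s ^ 2 * A) ^ 2 - 10557 / 10000 * (s ^ 2 * A * (s ^ 3 * P)) - 23 / 125 * (s ^ 3 * P) ^ 2 +
        4363 / 1250 * (s ^ 2 * A) ^ 3 - 21 / 5 * ((s ^ 2 * A) ^ 2 * (s ^ 3 * P)) +
        3927 / 1250 * (s ^ 2 * A * (s ^ 3 * P) ^ 2) - 1281 / 1000 * (s ^ 2 * A) ^ 4 := by
      ring
    rw [← e] at hg
    exact nonneg_of_mul_nonneg_right hg (by positivity)

end Vale.Agent.Lib.P154F
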