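import Vale.Agent.Lib.P154F.Data
import Vale.Agent.Lib.P154K.Pot

/-!
# The potential of degree eight and the invariant: the inequalities without a merge

All the inequalities here are about one point of the simplex.  We write `A = 3/2 p2` and `P = 9/2 p3`.
-/

namespace Vale.Agent.Lib.P154F

open Vale.Agent.Lib.P154 Vale.Agent.Lib.P154GW Vale.Agent.Lib.P154K

/-- The quadratic invariant, normalized to one at the vertices. -/
noncomputable def Aq (c : Tp) : ℝ := 3 / 2 * p2T c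

/-- The cubic invariant, normalized to one at the vertices. -/
noncomputable def Pq (c : Tp) : ℝ := 9 / 2 * p3T c

/-- The invariant function. -/
noncomputable def chiF (c : Tp) : ℝ := Pq c - 3 / 10 * Aq c ^ 2

/-- The potential. -/
noncomputable def psiF (c : Tp) : ℝ :=
  Aq c + 393 / 5000 * Aq c ^ 2 - 3519 / 10000 * (Aq c * Pq c) - 23 / 500 * Pq c ^ 2 +
    4363 / 5000 * Aq c ^ 3 - 21 / 25 * (Aq c ^ 2 * Pq c) + 1309 / 2500 * (Aq c * Pq c ^ 2) -
    427 / 2000 * Aq c ^ 4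

/-- The multiplier of the invariant of the first message. -/
noncomputable def GF (b : Tp) : ℝ :=
  Aq b * (14043 / 10000 - 2749 / 5000 * Aq b + 297 / 250 * Pq b - 21 / 20 * Aq b ^ 2)

/-- The multiplier of the invariant of the second message. -/
noncomputable def HF (a : Tp) : ℝ :=
  (1 - Aq a) * (Aq a - Pq a) * (14037 / 10000 + 8733 / 5000 * Aq a - 17157 / 10000 * Pq a)

/-- The decay factor of the invariant. -/
noncomputable def KF (a : Tp) : ℝ := (1 - Aq a) ^ 3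

/-- The inequalities between `A` and `P` on the simplex. -/
structure Reg (A P : ℝ) : Prop where
  a0 : 0 ≤ A
  a1 : A ≤ 1
  pa : P ≤ A
  cub : P ^ 2 ≤ A ^ 3
  edge : 0 ≤ 1 - 3 * A + 2 * P

lemma reg_of {c : Tp} (hc : InSx 1 c) : Reg (Aq c) (Pq c) := by
  have h0 := p2T_nonneg c
  have h1 := p2T_le_of_inSx hc
  have h2 := p3T_le hc
  have h3 := sq_cubic_le hc.zs
  have h4 := hc.prod_nonneg
  refine ⟨?_, ?_, ?_, ?_, ?_⟩
  · simp only [Aq]; linarith
  · simp only [Aq]; linarith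
  · simp only [Aq, Pq]; linarith
  · simp only [Aq, Pq, p3T]
    nlinarith
  · simp only [Tp.hP, Tp.hQ] at h4
    simp only [Aq, Pq, p2T, p3T]
    nlinarith

lemma Aq_scale (s : ℝ) (c : Tp) : Aq (scale s c) = s ^ 2 * Aq c := by
  simp only [Aq, p2T_scale]
  ring

lemma Pq_scale (s : ℝ) (c : Tp) : Pq (scale s c) = s ^ 3 * Pq c := by
  simp only [Pq, P154GW.p3T_scale]
  ring

/-- The multipliers are nonnegative. -/
lemma GF_nonneg {b : Tp} (hb : InSx 1 b) : 0 ≤ GF b := by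
  obtain ⟨a0, a1, pa, cub, edge⟩ := reg_of hb
  simp only [GF]
  apply mul_nonneg a0
  nlinarith [mul_nonneg a0 (sub_nonneg.2 a1)]

lemma HF_nonneg {a : Tp} (ha : InSx 1 a) : 0 ≤ HF a := by
  obtain ⟨a0, a1, pa, cub, edge⟩ := reg_of ha
  simp only [HF]
  apply mul_nonneg
  · apply mul_nonneg <;> linarith
  · nlinarith

lemma KF_nonneg {a : Tp} (ha : InSx 1 a) : 0 ≤ KF a := by
  obtain ⟨a0, a1, pa, cub, edge⟩ := reg_of ha
  simp only [KF]
  exact pow_nonneg (by linarith) 3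

/-- The invariant on the scaled simplex. -/
lemma chi_scale {l : ℝ} (h0 : 0 ≤ l) (h1 : l ≤ 1) (c : Tp) : l ^ 3 * chiF c ≤ chiF (scale l c) := by
  simp only [chiF, Aq_scale, Pq_scale]
  have : 0 ≤ 3 / 10 * l ^ 3 * (1 - l) * Aq c ^ 2 := by
    have h2 : 0 ≤ 1 - l := by linarith
    positivity
  nlinarith

lemma chi_zero : 0 ≤ chiF ⟨0, 0, 0⟩ := by
  simp [chiF, Aq, Pq, p2T, p3T]

lemma chi_v1 : 0 ≤ chiF ⟨2 / 3, -1 / 3, -1 / 3⟩ := by
  simp only [chiF, Aq, Pq, p2T, p3T]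
  norm_num

lemma chi_v2 : 0 ≤ chiF ⟨-1 / 3, 2 / 3, -1 / 3⟩ := by
  simp only [chiF, Aq, Pq, p2T, p3T]
  norm_num

lemma chi_v3 : 0 ≤ chiF ⟨-1 / 3, -1 / 3, 2 / 3⟩ := by
  simp only [chiF, Aq, Pq, p2T, p3T]
  norm_num

lemma psi_zero : psiF ⟨0, 0, 0⟩ ≤ 0 := by
  simp [psiF, Aq, Pq, p2T, p3T]

/-- The potential is at least a multiple of `A`. -/
lemma psi_ge {c : Tp} (hc : InSx 1 c) : 2 / 5 * Aq c ≤ psiF c := by
  obtain ⟨a0, a1, pa, cub, edge⟩ := reg_of hc
  simp only [psiF]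
  set A := Aq c
  set P := Pq c
  have e1 : 0 ≤ A * (A - P) := mul_nonneg a0 (by linarith)
  have e2 : 0 ≤ A ^ 2 * (A - P) := mul_nonneg (by positivity) (by linarith)
  have e3 : 0 ≤ A * P ^ 2 := by positivity
  have e4 : 0 ≤ A * (1 - A) := mul_nonneg a0 (by linarith)
  have e5 : 0 ≤ A ^ 2 * (1 - A) := mul_nonneg (by positivity) (by linarith)
  have e6 : 0 ≤ A ^ 3 * (1 - A) := mul_nonneg (by positivity) (by linarith)
  nlinarith

lemma psi_nonneg {c : Tp} (hc : InSx 1 c) : 0 ≤ psiF c := by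
  have h := psi_ge hc
  have h0 := (reg_of hc).a0
  linarith

lemma p2_le_psi {c : Tp} (hc : InSx 1 c) : p2T c ≤ 5 / 3 * psiF c := by
  have h := psi_ge hc
  simp only [Aq] at h
  linarith

/-- The potential is bounded on the simplex. -/
lemma psi_le {c : Tp} (hc : InSx 1 c) : psiF c ≤ 4 := by
  obtain ⟨a0, a1, pa, cub, edge⟩ := reg_of hc
  simp only [psiF]
  set A := Aq c
  set P := Pq c
  have hA2 : A ^ 2 ≤ 1 := pow_le_one₀ a0 a1
  have hA3 : A ^ 3 ≤ 1 := pow_le_one₀ a0 a1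
  have hA4 : 0 ≤ A ^ 4 := by positivity
  have hP2 : P ^ 2 ≤ 1 := cub.trans hA3
  have hP1 : |P| ≤ 1 := by
    rw [← sq_le_one_iff_abs_le_one]
    exact hP2
  have hP3 := abs_le.1 hP1
  have e1 : -(A * P) ≤ 1 := by nlinarith [hP3.1, hP3.2]
  have e2 : -(A ^ 2 * P) ≤ 1 := by nlinarith [hP3.1, hP3.2, sq_nonneg A]
  have e3 : A * P ^ 2 ≤ 1 := by nlinarith [sq_nonneg P]
  have e4 : 0 ≤ P ^ 2 := sq_nonneg P
  linarith

end Vale.Agent.Lib.P154F
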